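import Mathlib
import Vale.Agent.Lib.P268.N4

/-!
Weights and multiplicity of weighted homogeneous isolated hypersurface germs of corank at most four
in any number of variables, from the Milnor-Orlik monodromy traces and the cotangent sums of the
spectrum modulo 2.
-/

open Finset

namespace Vale.Agent.Results.P268.QHACorank

open Vale.Agent.Lib.P268

theorem result {N : ℕ} (hN : 0 < N) (q q' : Fin N → ℚ)
    (f g : MvPolynomial (Fin N) ℂ)
    (hq : ∀ i, 2 ≤ q i) (hq' : ∀ i, 2 ≤ q' i)
    (hc : (univ.filter (fun i => q i ≠ 2)).card ≤ 4)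
    (hc' : (univ.filter (fun j => q' j ≠ 2)).card ≤ 4)
    (hf : IsWeightedHomog q f) (hg : IsWeightedHomog q' g)
    (hfi : IsolatedCrit f) (hgi : IsolatedCrit g)
    (htrace : ∀ m : ℕ, 1 ≤ m → monodromyTrace q m = monodromyTrace q' m)
    (hcot : ∀ k : ℕ, Odd k → (∀ i, ¬ nm (q i) ∣ k) → (∀ j, ¬ nm (q' j) ∣ k) →
      |cotK q k| = |cotK q' k|) :
    (∀ v : ℚ, (univ.filter (fun i => q i = v)).card = (univ.filter (fun j => q' j = v)).card) ∧
      ord0 f = ord0 g := by
  have hcount := weights_eq_corank q q' hq hq' htrace hcot hc hc'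
  exact ⟨hcount, ord_eq_of_counts hN q q' f g hq hq' hf hg hfi hgi hcount⟩

end Vale.Agent.Results.P268.QHACorank
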