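import Mathlib
import Vale.Agent.Lib.P268.Poly

/-!
Multiplicity of weighted homogeneous isolated hypersurface germs in any number of variables,
from the Milnor-Orlik monodromy traces and the cotangent invariant of the spectrum modulo 2.
-/

open Finset

namespace Vale.Agent.Results.P268.QHRigid

open Vale.Agent.Lib.P268

theorem result {N : ℕ} (hN : 0 < N) (q q' : Fin N → ℚ) (f g : MvPolynomial (Fin N) ℂ)
    (hq : ∀ i, 2 ≤ q i) (hq' : ∀ i, 2 ≤ q' i)
    (hf : IsWeightedHomog q f) (hg : IsWeightedHomog q' g)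
    (hfi : IsolatedCrit f) (hgi : IsolatedCrit g)
    (htrace : ∀ m : ℕ, 1 ≤ m → monodromyTrace q m = monodromyTrace q' m) :
    (TopRigid q → ord0 g ≤ ord0 f) ∧
    (TopRigid q → TopRigid q' → ord0 f = ord0 g) ∧
    (Rigid q → cotInvariant q = cotInvariant q' →
      (∀ v : ℚ, (univ.filter (fun i => q i = v)).card = (univ.filter (fun j => q' j = v)).card) ∧
        ord0 f = ord0 g) := by
  refine ⟨ord_le_of_topRigid hN q q' f g hq hq' hf hg hfi hgi htrace, ?_, ?_⟩
  · intro h1 h2
    exact le_antisymm
      (ord_le_of_topRigid hN q' q g f hq' hq hg hf hgi hfi (fun m hm => (htrace m hm).symm) h2)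
      (ord_le_of_topRigid hN q q' f g hq hq' hf hg hfi hgi htrace h1)
  · intro hr hc
    have hcount := weights_eq q q' hq hq' hr htrace hc
    exact ⟨hcount, ord_eq_of_counts hN q q' f g hq hq' hf hg hfi hgi hcount⟩

end Vale.Agent.Results.P268.QHRigid
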