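import Mathlib
import Vale.Agent.Lib.P268.SepAll

/-!
Weights and multiplicity of weighted homogeneous isolated hypersurface germs in any number of
variables, from the Milnor-Orlik monodromy traces and the cotangent sums of the spectrum modulo 2:
rigid or separated numerator classes of either parity; corank at most two; multiplicity two for at
most four variables.
-/

open Finset

namespace Vale.Agent.Results.P268.QHSepAll

open Vale.Agent.Lib.P268

lemma ord_two_forward {N : ℕ} (hN : 0 < N) (hN4 : N ≤ 4) (q q' : Fin N → ℚ)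
    (f g : MvPolynomial (Fin N) ℂ) (hq : ∀ i, 2 ≤ q i) (hq' : ∀ i, 2 ≤ q' i)
    (hf : IsWeightedHomog q f) (hg : IsWeightedHomog q' g)
    (hfi : IsolatedCrit f) (hgi : IsolatedCrit g)
    (htrace : ∀ m : ℕ, 1 ≤ m → monodromyTrace q m = monodromyTrace q' m)
    (hcot : ∀ k : ℕ, Odd k → (∀ i, ¬ nm (q i) ∣ k) → (∀ j, ¬ nm (q' j) ∣ k) →
      |cotK q k| = |cotK q' k|) (h2 : ord0 f = 2) : ord0 g = 2 := by
  have : Nonempty (Fin N) := ⟨⟨0, hN⟩⟩
  obtain ⟨i0, hi0⟩ := Finite.exists_min q
  obtain ⟨j0, hj0⟩ := Finite.exists_min q'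
  rw [ord0_eq q f hq hf hfi i0 hi0] at h2
  have hi2 : q i0 = 2 := by
    have h3 : q i0 ≤ 2 := by
      have := Nat.le_ceil (q i0)
      rw [h2] at this
      exact_mod_cast this
    exact le_antisymm h3 (hq i0)
  have hex : ∃ j, q' j = 2 := by
    rcases Nat.even_or_odd (univ.filter (fun i => q i = 2)).card with he | ho
    · have hc1 : (univ.filter (fun i => q i = 2)).card + (univ.filter (fun i => q i ≠ 2)).card = N := by
        have := Finset.card_filter_add_card_filter_not (s := (univ : Finset (Fin N))) (fun i => q i = 2)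
        simpa using this
      have hpos : 0 < (univ.filter (fun i => q i = 2)).card :=
        Finset.card_pos.mpr ⟨i0, by simp [hi2]⟩
      obtain ⟨m, hm⟩ := he
      have hcor : (univ.filter (fun i => q i ≠ 2)).card ≤ 2 := by omega
      have hcount := weights_eq_all q q' hq hq' htrace hcot (rigid_or_sep_of_corank q hq hcor) 2
      have hne : (univ.filter (fun i => q i = 2)).card ≠ 0 := by omega
      rw [hcount] at hne
      obtain ⟨j, hj⟩ := Finset.card_pos.mp (Nat.pos_of_ne_zero hne)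
      simp only [mem_filter, mem_univ, true_and] at hj
      exact ⟨j, hj⟩
    · exact exists_two_of_odd q q' hq hq' htrace ho
  obtain ⟨j, hj⟩ := hex
  have hj2 : q' j0 = 2 := le_antisymm (hj ▸ hj0 j) (hq' j0)
  rw [ord0_eq q' g hq' hg hgi j0 hj0, hj2]
  norm_num

theorem result {N : ℕ} (hN : 0 < N) (q q' : Fin N → ℚ) (f g : MvPolynomial (Fin N) ℂ)
    (hq : ∀ i, 2 ≤ q i) (hq' : ∀ i, 2 ≤ q' i)
    (hf : IsWeightedHomog q f) (hg : IsWeightedHomog q' g)
    (hfi : IsolatedCrit f) (hgi : IsolatedCrit g)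
    (htrace : ∀ m : ℕ, 1 ≤ m → monodromyTrace q m = monodromyTrace q' m)
    (hcot : ∀ k : ℕ, Odd k → (∀ i, ¬ nm (q i) ∣ k) → (∀ j, ¬ nm (q' j) ∣ k) →
      |cotK q k| = |cotK q' k|) :
    ((∀ b : ℕ, 3 ≤ b → ClassRigid q b ∨ SeparatedAll q b) →
      (∀ v : ℚ, (univ.filter (fun i => q i = v)).card = (univ.filter (fun j => q' j = v)).card) ∧
        ord0 f = ord0 g) ∧
    ((univ.filter (fun i => q i ≠ 2)).card ≤ 2 →
      (∀ v : ℚ, (univ.filter (fun i => q i = v)).card = (univ.filter (fun j => q' j = v)).card) ∧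
        ord0 f = ord0 g) ∧
    (N ≤ 4 → (ord0 f = 2 ↔ ord0 g = 2)) := by
  have main : (∀ b : ℕ, 3 ≤ b → ClassRigid q b ∨ SeparatedAll q b) →
      (∀ v : ℚ, (univ.filter (fun i => q i = v)).card = (univ.filter (fun j => q' j = v)).card) ∧
        ord0 f = ord0 g := by
    intro hsep
    have hcount := weights_eq_all q q' hq hq' htrace hcot hsep
    exact ⟨hcount, ord_eq_of_counts hN q q' f g hq hq' hf hg hfi hgi hcount⟩
  refine ⟨main, fun hc => main (rigid_or_sep_of_corank q hq hc), fun hN4 => ⟨?_, ?_⟩⟩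
  · exact ord_two_forward hN hN4 q q' f g hq hq' hf hg hfi hgi htrace hcot
  · exact ord_two_forward hN hN4 q' q g f hq' hq hg hf hgi hfi (fun m hm => (htrace m hm).symm)
      (fun k hk h1 h2 => (hcot k hk h2 h1).symm)

end Vale.Agent.Results.P268.QHSepAll
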