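import Mathlib
import Vale.Agent.Results.P268.QHACorank
import Vale.Agent.Results.P268.QHCoupled
import Vale.Agent.Results.P268.QHRigid
import Vale.Agent.Results.P268.QHSepAll

/-!
Weights and multiplicity of weighted homogeneous isolated hypersurface germs: all the cases proved,
in one statement.
-/

open Finset

namespace Vale.Agent.Results.P268.A0Conj

open Vale.Agent.Lib.P268

theorem result {N : ℕ} (hN : 0 < N) (q q' : Fin N → ℚ) (f g : MvPolynomial (Fin N) ℂ)
    (hq : ∀ i, 2 ≤ q i) (hq' : ∀ i, 2 ≤ q' i)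
    (hf : IsWeightedHomog q f) (hg : IsWeightedHomog q' g)
    (hfi : IsolatedCrit f) (hgi : IsolatedCrit g)
    (htrace : ∀ m : ℕ, 1 ≤ m → monodromyTrace q m = monodromyTrace q' m) :
    ((TopRigid q → ord0 g ≤ ord0 f) ∧
      (TopRigid q → TopRigid q' → ord0 f = ord0 g) ∧
      (Rigid q → cotInvariant q = cotInvariant q' →
        (∀ v : ℚ, (univ.filter (fun i => q i = v)).card = (univ.filter (fun j => q' j = v)).card) ∧
          ord0 f = ord0 g)) ∧
    ((∀ k : ℕ, Odd k → (∀ i, ¬ nm (q i) ∣ k) → (∀ j, ¬ nm (q' j) ∣ k) →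
        |cotK q k| = |cotK q' k|) →
      ((univ.filter (fun i => q i ≠ 2)).card ≤ 4 → (univ.filter (fun j => q' j ≠ 2)).card ≤ 4 →
        (∀ v : ℚ, (univ.filter (fun i => q i = v)).card = (univ.filter (fun j => q' j = v)).card) ∧
          ord0 f = ord0 g) ∧
      ((∀ b : ℕ, 3 ≤ b → ClassRigid q b ∨ Unobstructed q b) →
        (∀ v : ℚ, (univ.filter (fun i => q i = v)).card = (univ.filter (fun j => q' j = v)).card) ∧
          ord0 f = ord0 g) ∧
      ((∀ b : ℕ, 3 ≤ b → ClassRigid q b ∨ SeparatedAll q b) →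
        (∀ v : ℚ, (univ.filter (fun i => q i = v)).card = (univ.filter (fun j => q' j = v)).card) ∧
          ord0 f = ord0 g) ∧
      (N ≤ 4 → (ord0 f = 2 ↔ ord0 g = 2))) := by
  refine ⟨Vale.Agent.Results.P268.QHRigid.result hN q q' f g hq hq' hf hg hfi hgi htrace, ?_⟩
  intro hcot
  have h := Vale.Agent.Results.P268.QHSepAll.result hN q q' f g hq hq' hf hg hfi hgi htrace hcot
  refine ⟨?_, ?_, h.1, h.2.2⟩
  · intro hc hc'
    exact Vale.Agent.Results.P268.QHACorank.result hN q q' f g hq hq' hc hc' hf hg hfi hgi htrace hcot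
  · intro hsep
    exact Vale.Agent.Results.P268.QHCoupled.result hN q q' f g hq hq' hf hg hfi hgi htrace hcot hsep

end Vale.Agent.Results.P268.A0Conj
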